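import Mathlib.Data.Nat.Bits

/-!
P333: the encodings of words and of lists of words as bit strings.
-/

namespace Vale.Agent.P333.PT

/-- The self-delimiting code of a pair of bit strings: every bit of the first string doubled,
then `01`, then the second string. -/
def pairBits : List Bool → List Bool → List Bool
  | [], y => false :: true :: y
  | b :: x, y => b :: b :: pairBits x y

/-- The code of a word over the alphabet `ℕ`; letters are written in binary. -/
def encWord : List ℕ → List Bool
  | [] => []
  | a :: w => pairBits a.bits (encWord w)

/-- The code of a list of words. -/
def encFam : List (List ℕ) → List Bool
  | [] => []
  | w :: X => pairBits (encWord w) (encFam X)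

end Vale.Agent.P333.PT
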